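import Vale.Agent.P205.Wiggle

namespace Vale.Agent.P205

open scoped ContDiff
open Real MeasureTheory intervalIntegral

lemma algebra_E (a a' K p q U' ψ' : ℝ) (hK : K ≠ 0) (hp : p ≠ 0) (hq : q ≠ 0)
    (h : p ^ 2 + q ^ 2 = 1) :
    (a' / K * p + a / K * (-U' / (2 * p))) ^ 2 + (a' / K * q + a / K * (U' / (2 * q))) ^ 2 +
      (a / K * p) ^ 2 * (-(q ^ 2 * ψ')) ^ 2 + (a / K * q) ^ 2 * (ψ' - q ^ 2 * ψ') ^ 2 =
    a' ^ 2 / K ^ 2 + a ^ 2 / K ^ 2 * (U' ^ 2 / (4 * (q ^ 2 * (1 - q ^ 2))) +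
      q ^ 2 * (1 - q ^ 2) * ψ' ^ 2) := by
  have h1 : 1 - q ^ 2 = p ^ 2 := by linarith
  have h2 : ψ' - q ^ 2 * ψ' = p ^ 2 * ψ' := by rw [← h1]; ring
  rw [h1, h2]
  have e1 : (a' / K * p + a / K * (-U' / (2 * p))) ^ 2 + (a' / K * q + a / K * (U' / (2 * q))) ^ 2 +
      (a / K * p) ^ 2 * (-(q ^ 2 * ψ')) ^ 2 + (a / K * q) ^ 2 * (p ^ 2 * ψ') ^ 2 =
      (a' / K) ^ 2 * (p ^ 2 + q ^ 2) + (a / K) ^ 2 * (U' / 2) ^ 2 * ((p ^ 2 + q ^ 2) / (p ^ 2 * q ^ 2))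
        + (a / K) ^ 2 * ψ' ^ 2 * p ^ 2 * q ^ 2 * (p ^ 2 + q ^ 2) := by
    field_simp
    ring
  rw [e1, h]
  field_simp
  ring

variable (u₀ A : ℝ) (m : ℕ) (K : ℝ) (f ψ : ℝ → ℝ)

/-- First radius. -/
noncomputable def rad1 (x : ℝ) : ℝ := f x / K * sqrt (1 - uF u₀ A m (ψ x))

/-- Second radius. -/
noncomputable def rad2 (x : ℝ) : ℝ := f x / K * sqrt (uF u₀ A m (ψ x))

/-- A primitive of the height function. -/
noncomputable def primU (t : ℝ) : ℝ := u₀ * t - A / m * cos (m * t)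

/-- First phase. -/
noncomputable def ph1 (x : ℝ) : ℝ := -primU u₀ A m (ψ x)

/-- Second phase. -/
noncomputable def ph2 (x : ℝ) : ℝ := ψ x - primU u₀ A m (ψ x)

lemma contDiff_uF : ContDiff ℝ ∞ (uF u₀ A m) := by
  unfold uF
  exact contDiff_const.add (contDiff_const.mul (contDiff_const.mul contDiff_id).sin)

lemma contDiff_primU : ContDiff ℝ ∞ (primU u₀ A m) := by
  unfold primU
  exact (contDiff_const.mul contDiff_id).sub
    (contDiff_const.mul (contDiff_const.mul contDiff_id).cos)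

lemma hasDerivAt_uF (t : ℝ) : HasDerivAt (uF u₀ A m) (A * m * cos (m * t)) t := by
  have h1 : HasDerivAt (fun t : ℝ => (m : ℝ) * t) m t := by
    simpa using (hasDerivAt_id t).const_mul (m : ℝ)
  have h2 := (h1.sin.const_mul A).const_add u₀
  refine h2.congr_deriv ?_
  ring

lemma hasDerivAt_primU (hm : 0 < m) (t : ℝ) : HasDerivAt (primU u₀ A m) (uF u₀ A m t) t := by
  have hm' : (m : ℝ) ≠ 0 := by exact_mod_cast hm.ne'
  have h1 : HasDerivAt (fun t : ℝ => (m : ℝ) * t) m t := by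
    simpa using (hasDerivAt_id t).const_mul (m : ℝ)
  have h0 : HasDerivAt (fun t : ℝ => u₀ * t) u₀ t := by
    simpa using (hasDerivAt_id t).const_mul u₀
  have h2 := h0.sub (h1.cos.const_mul (A / m))
  refine h2.congr_deriv ?_
  unfold uF
  field_simp
  ring

variable {u₀ A m K f ψ}

section

variable (h1 : 1 / 3 ≤ u₀) (h2 : u₀ ≤ 2 / 3) (hA0 : 0 ≤ A) (hA : A ≤ 1 / 6)
  (hf : ContDiff ℝ ∞ f) (hψ : ContDiff ℝ ∞ ψ)

include h1 h2 hA0 hA hf hψ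

lemma contDiff_rad1 : ContDiff ℝ ∞ (rad1 u₀ A m K f ψ) := by
  unfold rad1
  refine (hf.div_const K).mul (ContDiff.sqrt ?_ ?_)
  · exact contDiff_const.sub ((contDiff_uF u₀ A m).comp hψ)
  · intro x
    have := (uF_mem h1 h2 hA0 hA m (ψ x)).2
    intro h0
    linarith

lemma contDiff_rad2 : ContDiff ℝ ∞ (rad2 u₀ A m K f ψ) := by
  unfold rad2
  refine (hf.div_const K).mul (ContDiff.sqrt ?_ ?_)
  · exact (contDiff_uF u₀ A m).comp hψ
  · intro x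
    have := (uF_mem h1 h2 hA0 hA m (ψ x)).1
    intro h0
    linarith

omit h1 h2 hA0 hA hf in
lemma contDiff_ph1 : ContDiff ℝ ∞ (ph1 u₀ A m ψ) := by
  unfold ph1
  exact ((contDiff_primU u₀ A m).comp hψ).neg

omit h1 h2 hA0 hA hf in
lemma contDiff_ph2 : ContDiff ℝ ∞ (ph2 u₀ A m ψ) := by
  unfold ph2
  exact hψ.sub ((contDiff_primU u₀ A m).comp hψ)

lemma deriv_rad1 (x : ℝ) : deriv (rad1 u₀ A m K f ψ) x =
    deriv f x / K * sqrt (1 - uF u₀ A m (ψ x)) +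
      f x / K * (-(A * m * cos (m * ψ x) * deriv ψ x) / (2 * sqrt (1 - uF u₀ A m (ψ x)))) := by
  have dψ : HasDerivAt ψ (deriv ψ x) x := (hψ.differentiable (by simp) x).hasDerivAt
  have df : HasDerivAt f (deriv f x) x := (hf.differentiable (by simp) x).hasDerivAt
  have dU : HasDerivAt (fun x => uF u₀ A m (ψ x)) (A * m * cos (m * ψ x) * deriv ψ x) x :=
    (hasDerivAt_uF u₀ A m (ψ x)).comp x dψ
  have d1 : HasDerivAt (fun x => 1 - uF u₀ A m (ψ x)) (-(A * m * cos (m * ψ x) * deriv ψ x)) x :=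
    dU.const_sub 1
  have hne : 1 - uF u₀ A m (ψ x) ≠ 0 := by
    have := (uF_mem h1 h2 hA0 hA m (ψ x)).2
    intro h0
    linarith
  exact ((df.div_const K).mul (d1.sqrt hne)).deriv

lemma deriv_rad2 (x : ℝ) : deriv (rad2 u₀ A m K f ψ) x =
    deriv f x / K * sqrt (uF u₀ A m (ψ x)) +
      f x / K * ((A * m * cos (m * ψ x) * deriv ψ x) / (2 * sqrt (uF u₀ A m (ψ x)))) := by
  have dψ : HasDerivAt ψ (deriv ψ x) x := (hψ.differentiable (by simp) x).hasDerivAt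
  have df : HasDerivAt f (deriv f x) x := (hf.differentiable (by simp) x).hasDerivAt
  have dU : HasDerivAt (fun x => uF u₀ A m (ψ x)) (A * m * cos (m * ψ x) * deriv ψ x) x :=
    (hasDerivAt_uF u₀ A m (ψ x)).comp x dψ
  have hne : uF u₀ A m (ψ x) ≠ 0 := by
    have := (uF_mem h1 h2 hA0 hA m (ψ x)).1
    intro h0
    linarith
  exact ((df.div_const K).mul (dU.sqrt hne)).deriv

omit h1 h2 hA0 hA hf in
lemma deriv_ph1 (hm : 0 < m) (x : ℝ) :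
    deriv (ph1 u₀ A m ψ) x = -(uF u₀ A m (ψ x) * deriv ψ x) := by
  have dψ : HasDerivAt ψ (deriv ψ x) x := (hψ.differentiable (by simp) x).hasDerivAt
  exact ((hasDerivAt_primU u₀ A m hm (ψ x)).comp x dψ).neg.deriv

omit h1 h2 hA0 hA hf in
lemma deriv_ph2 (hm : 0 < m) (x : ℝ) :
    deriv (ph2 u₀ A m ψ) x = deriv ψ x - uF u₀ A m (ψ x) * deriv ψ x := by
  have dψ : HasDerivAt ψ (deriv ψ x) x := (hψ.differentiable (by simp) x).hasDerivAt
  exact (dψ.sub ((hasDerivAt_primU u₀ A m hm (ψ x)).comp x dψ)).deriv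

/-- The first fundamental form of the cone over the horizontal lift of the wiggly curve. -/
lemma inner_cone (hm : 0 < m) (hK : K ≠ 0) (z v w : ℝ × ℝ) :
    inner ℝ
      (fderiv ℝ (hopfMap K (rad1 u₀ A m K f ψ) (rad2 u₀ A m K f ψ) (ph1 u₀ A m ψ)
        (ph2 u₀ A m ψ)) z v)
      (fderiv ℝ (hopfMap K (rad1 u₀ A m K f ψ) (rad2 u₀ A m K f ψ) (ph1 u₀ A m ψ)
        (ph2 u₀ A m ψ)) z w) =
    (deriv f z.1 ^ 2 / K ^ 2 + f z.1 ^ 2 / K ^ 2 * (gSq u₀ A m (ψ z.1) * deriv ψ z.1 ^ 2)) *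
      v.1 * w.1 + f z.1 ^ 2 * v.2 * w.2 := by
  rw [inner_fderiv_hopfMap K (contDiff_rad1 h1 h2 hA0 hA hf hψ) (contDiff_rad2 h1 h2 hA0 hA hf hψ)
    (contDiff_ph1 hψ) (contDiff_ph2 hψ), deriv_rad1 h1 h2 hA0 hA hf hψ,
    deriv_rad2 h1 h2 hA0 hA hf hψ, deriv_ph1 hψ hm, deriv_ph2 hψ hm]
  obtain ⟨hu1, hu2⟩ := uF_mem h1 h2 hA0 hA m (ψ z.1)
  set u := uF u₀ A m (ψ z.1) with hu
  set p := sqrt (1 - u) with hp
  set q := sqrt u with hq
  have hp2 : p ^ 2 = 1 - u := sq_sqrt (by linarith)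
  have hq2 : q ^ 2 = u := sq_sqrt (by linarith)
  have hp0 : p ≠ 0 := (sqrt_pos.mpr (by linarith)).ne'
  have hq0 : q ≠ 0 := (sqrt_pos.mpr (by linarith)).ne'
  have hpq : p ^ 2 + q ^ 2 = 1 := by rw [hp2, hq2]; ring
  have hr1 : rad1 u₀ A m K f ψ z.1 = f z.1 / K * p := rfl
  have hr2 : rad2 u₀ A m K f ψ z.1 = f z.1 / K * q := rfl
  rw [hr1, hr2]
  have hE := algebra_E (f z.1) (deriv f z.1) K p q (A * m * cos (m * ψ z.1) * deriv ψ z.1)
    (deriv ψ z.1) hK hp0 hq0 hpq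
  rw [hq2] at hE
  have hg : gSq u₀ A m (ψ z.1) = (A * m * cos (m * ψ z.1)) ^ 2 / (4 * (u * (1 - u))) +
      u * (1 - u) := rfl
  have hcross : (f z.1 / K * p) ^ 2 * -(u * deriv ψ z.1) +
      (f z.1 / K * q) ^ 2 * (deriv ψ z.1 - u * deriv ψ z.1) = 0 := by
    have : (f z.1 / K * p) ^ 2 * -(u * deriv ψ z.1) +
      (f z.1 / K * q) ^ 2 * (deriv ψ z.1 - u * deriv ψ z.1) =
      (f z.1 / K) ^ 2 * deriv ψ z.1 * (-(p ^ 2 * u) + q ^ 2 * (1 - u)) := by ring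
    rw [this, hp2, hq2]
    ring
  have hG : K ^ 2 * ((f z.1 / K * p) ^ 2 + (f z.1 / K * q) ^ 2) = f z.1 ^ 2 := by
    have : K ^ 2 * ((f z.1 / K * p) ^ 2 + (f z.1 / K * q) ^ 2) =
        K ^ 2 * (f z.1 / K) ^ 2 * (p ^ 2 + q ^ 2) := by ring
    rw [this, hpq]
    field_simp
  rw [hE, hcross, hG, hg]
  have hd : u * (1 - u) ≠ 0 := by
    have : 0 < u * (1 - u) := mul_pos (by linarith) (by linarith)
    exact this.ne'
  field_simp
  ring

end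

end Vale.Agent.P205
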