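import Vale.Agent.P205.Inverse

namespace Vale.Agent.P205

open scoped ContDiff
open Real

/-- The map `(x, y) ↦ (r₁(x) e^{i(θ₁(x) + K y)}, r₂(x) e^{i(θ₂(x) + K y)})` into `ℝ⁴`. -/
noncomputable def hopfMap (K : ℝ) (r₁ r₂ θ₁ θ₂ : ℝ → ℝ) (z : ℝ × ℝ) : EuclideanSpace ℝ (Fin 4) :=
  !₂[r₁ z.1 * cos (θ₁ z.1 + K * z.2), r₁ z.1 * sin (θ₁ z.1 + K * z.2),
    r₂ z.1 * cos (θ₂ z.1 + K * z.2), r₂ z.1 * sin (θ₂ z.1 + K * z.2)]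

lemma contDiff_hopfMap (K : ℝ) {r₁ r₂ θ₁ θ₂ : ℝ → ℝ} (h1 : ContDiff ℝ ∞ r₁)
    (h2 : ContDiff ℝ ∞ r₂) (h3 : ContDiff ℝ ∞ θ₁) (h4 : ContDiff ℝ ∞ θ₂) :
    ContDiff ℝ ∞ (hopfMap K r₁ r₂ θ₁ θ₂) := by
  rw [contDiff_euclidean]
  have a1 : ContDiff ℝ ∞ (fun z : ℝ × ℝ => r₁ z.1) := h1.comp contDiff_fst
  have a2 : ContDiff ℝ ∞ (fun z : ℝ × ℝ => r₂ z.1) := h2.comp contDiff_fst
  have a3 : ContDiff ℝ ∞ (fun z : ℝ × ℝ => θ₁ z.1 + K * z.2) :=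
    (h3.comp contDiff_fst).add (contDiff_const.mul contDiff_snd)
  have a4 : ContDiff ℝ ∞ (fun z : ℝ × ℝ => θ₂ z.1 + K * z.2) :=
    (h4.comp contDiff_fst).add (contDiff_const.mul contDiff_snd)
  intro i
  fin_cases i
  · exact a1.mul a3.cos
  · exact a1.mul a3.sin
  · exact a2.mul a4.cos
  · exact a2.mul a4.sin

lemma hasFDerivAt_phase {θ : ℝ → ℝ} {θ' : ℝ} (K : ℝ) (z : ℝ × ℝ) (h : HasDerivAt θ θ' z.1) :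
    HasFDerivAt (fun z : ℝ × ℝ => θ z.1 + K * z.2)
      (θ' • ContinuousLinearMap.fst ℝ ℝ ℝ + K • ContinuousLinearMap.snd ℝ ℝ ℝ) z := by
  have h1 : HasFDerivAt (fun z : ℝ × ℝ => θ z.1) (θ' • ContinuousLinearMap.fst ℝ ℝ ℝ) z :=
    h.comp_hasFDerivAt z hasFDerivAt_fst
  have h2 : HasFDerivAt (fun z : ℝ × ℝ => K * z.2) (K • ContinuousLinearMap.snd ℝ ℝ ℝ) z :=
    hasFDerivAt_snd.const_mul K
  exact h1.add h2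

lemma hasFDerivAt_r_cos {r θ : ℝ → ℝ} {r' θ' : ℝ} (K : ℝ) (z : ℝ × ℝ) (hr : HasDerivAt r r' z.1)
    (h : HasDerivAt θ θ' z.1) :
    HasFDerivAt (fun z : ℝ × ℝ => r z.1 * cos (θ z.1 + K * z.2))
      ((r' * cos (θ z.1 + K * z.2) - r z.1 * sin (θ z.1 + K * z.2) * θ') •
          ContinuousLinearMap.fst ℝ ℝ ℝ +
        (-(r z.1 * sin (θ z.1 + K * z.2) * K)) • ContinuousLinearMap.snd ℝ ℝ ℝ) z := by
  have h1 : HasFDerivAt (fun z : ℝ × ℝ => r z.1) (r' • ContinuousLinearMap.fst ℝ ℝ ℝ) z :=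
    hr.comp_hasFDerivAt z hasFDerivAt_fst
  have h3 := h1.mul (hasFDerivAt_phase K z h).cos
  refine h3.congr_fderiv ?_
  ext <;> simp <;> ring

lemma hasFDerivAt_r_sin {r θ : ℝ → ℝ} {r' θ' : ℝ} (K : ℝ) (z : ℝ × ℝ) (hr : HasDerivAt r r' z.1)
    (h : HasDerivAt θ θ' z.1) :
    HasFDerivAt (fun z : ℝ × ℝ => r z.1 * sin (θ z.1 + K * z.2))
      ((r' * sin (θ z.1 + K * z.2) + r z.1 * cos (θ z.1 + K * z.2) * θ') •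
          ContinuousLinearMap.fst ℝ ℝ ℝ +
        (r z.1 * cos (θ z.1 + K * z.2) * K) • ContinuousLinearMap.snd ℝ ℝ ℝ) z := by
  have h1 : HasFDerivAt (fun z : ℝ × ℝ => r z.1) (r' • ContinuousLinearMap.fst ℝ ℝ ℝ) z :=
    hr.comp_hasFDerivAt z hasFDerivAt_fst
  have h3 := h1.mul (hasFDerivAt_phase K z h).sin
  refine h3.congr_fderiv ?_
  ext <;> simp <;> ring

lemma inner_fderiv_hopfMap (K : ℝ) {r₁ r₂ θ₁ θ₂ : ℝ → ℝ} (h1 : ContDiff ℝ ∞ r₁)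
    (h2 : ContDiff ℝ ∞ r₂) (h3 : ContDiff ℝ ∞ θ₁) (h4 : ContDiff ℝ ∞ θ₂) (z v w : ℝ × ℝ) :
    inner ℝ (fderiv ℝ (hopfMap K r₁ r₂ θ₁ θ₂) z v) (fderiv ℝ (hopfMap K r₁ r₂ θ₁ θ₂) z w) =
      (deriv r₁ z.1 ^ 2 + deriv r₂ z.1 ^ 2 + r₁ z.1 ^ 2 * deriv θ₁ z.1 ^ 2 +
        r₂ z.1 ^ 2 * deriv θ₂ z.1 ^ 2) * v.1 * w.1 +
      K * (r₁ z.1 ^ 2 * deriv θ₁ z.1 + r₂ z.1 ^ 2 * deriv θ₂ z.1) * (v.1 * w.2 + v.2 * w.1) +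
      K ^ 2 * (r₁ z.1 ^ 2 + r₂ z.1 ^ 2) * v.2 * w.2 := by
  set F := hopfMap K r₁ r₂ θ₁ θ₂ with hF
  have hdiff : DifferentiableAt ℝ F z :=
    (contDiff_hopfMap K h1 h2 h3 h4).differentiable (by simp) z
  have hcomp : ∀ i : Fin 4, HasFDerivAt (fun x => F x i)
      ((PiLp.proj 2 (fun _ : Fin 4 => ℝ) i : EuclideanSpace ℝ (Fin 4) →L[ℝ] ℝ) ∘L
        fderiv ℝ F z) z := fun i =>
    (PiLp.proj 2 (fun _ : Fin 4 => ℝ) i : EuclideanSpace ℝ (Fin 4) →L[ℝ] ℝ).hasFDerivAt.comp z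
      hdiff.hasFDerivAt
  have d1 : HasDerivAt r₁ (deriv r₁ z.1) z.1 := (h1.differentiable (by simp) z.1).hasDerivAt
  have d2 : HasDerivAt r₂ (deriv r₂ z.1) z.1 := (h2.differentiable (by simp) z.1).hasDerivAt
  have d3 : HasDerivAt θ₁ (deriv θ₁ z.1) z.1 := (h3.differentiable (by simp) z.1).hasDerivAt
  have d4 : HasDerivAt θ₂ (deriv θ₂ z.1) z.1 := (h4.differentiable (by simp) z.1).hasDerivAt
  have e0 := (hcomp 0).unique (hasFDerivAt_r_cos K z d1 d3)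
  have e1 := (hcomp 1).unique (hasFDerivAt_r_sin K z d1 d3)
  have e2 := (hcomp 2).unique (hasFDerivAt_r_cos K z d2 d4)
  have e3 := (hcomp 3).unique (hasFDerivAt_r_sin K z d2 d4)
  have c0 : ∀ u : ℝ × ℝ, (fderiv ℝ F z u) 0 =
      (deriv r₁ z.1 * cos (θ₁ z.1 + K * z.2) - r₁ z.1 * sin (θ₁ z.1 + K * z.2) * deriv θ₁ z.1) * u.1
        + (-(r₁ z.1 * sin (θ₁ z.1 + K * z.2) * K)) * u.2 := by
    intro u
    have := congrArg (fun T => T u) e0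
    simpa using this
  have c1 : ∀ u : ℝ × ℝ, (fderiv ℝ F z u) 1 =
      (deriv r₁ z.1 * sin (θ₁ z.1 + K * z.2) + r₁ z.1 * cos (θ₁ z.1 + K * z.2) * deriv θ₁ z.1) * u.1
        + (r₁ z.1 * cos (θ₁ z.1 + K * z.2) * K) * u.2 := by
    intro u
    have := congrArg (fun T => T u) e1
    simpa using this
  have c2 : ∀ u : ℝ × ℝ, (fderiv ℝ F z u) 2 =
      (deriv r₂ z.1 * cos (θ₂ z.1 + K * z.2) - r₂ z.1 * sin (θ₂ z.1 + K * z.2) * deriv θ₂ z.1) * u.1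
        + (-(r₂ z.1 * sin (θ₂ z.1 + K * z.2) * K)) * u.2 := by
    intro u
    have := congrArg (fun T => T u) e2
    simpa using this
  have c3 : ∀ u : ℝ × ℝ, (fderiv ℝ F z u) 3 =
      (deriv r₂ z.1 * sin (θ₂ z.1 + K * z.2) + r₂ z.1 * cos (θ₂ z.1 + K * z.2) * deriv θ₂ z.1) * u.1
        + (r₂ z.1 * cos (θ₂ z.1 + K * z.2) * K) * u.2 := by
    intro u
    have := congrArg (fun T => T u) e3
    simpa using this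
  rw [PiLp.inner_apply, Fin.sum_univ_four]
  simp only [c0, c1, c2, c3, RCLike.inner_apply, conj_trivial]
  have t1 := sin_sq_add_cos_sq (θ₁ z.1 + K * z.2)
  have t2 := sin_sq_add_cos_sq (θ₂ z.1 + K * z.2)
  generalize sin (θ₁ z.1 + K * z.2) = S1 at t1 ⊢
  generalize cos (θ₁ z.1 + K * z.2) = C1 at t1 ⊢
  generalize sin (θ₂ z.1 + K * z.2) = S2 at t2 ⊢
  generalize cos (θ₂ z.1 + K * z.2) = C2 at t2 ⊢
  linear_combination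
    (deriv r₁ z.1 ^ 2 * v.1 * w.1 + r₁ z.1 ^ 2 * deriv θ₁ z.1 ^ 2 * v.1 * w.1 +
      K * r₁ z.1 ^ 2 * deriv θ₁ z.1 * (v.1 * w.2 + v.2 * w.1) + K ^ 2 * r₁ z.1 ^ 2 * v.2 * w.2) * t1 +
    (deriv r₂ z.1 ^ 2 * v.1 * w.1 + r₂ z.1 ^ 2 * deriv θ₂ z.1 ^ 2 * v.1 * w.1 +
      K * r₂ z.1 ^ 2 * deriv θ₂ z.1 * (v.1 * w.2 + v.2 * w.1) + K ^ 2 * r₂ z.1 ^ 2 * v.2 * w.2) * t2

end Vale.Agent.P205
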