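import Vale.Agent.P205.Torus

namespace Vale.Agent.P205

open scoped ContDiff
open Real MeasureTheory intervalIntegral

/-- The map `(x, y) ↦ (ρ e^{iθ(x)}, (f(x)/K) e^{iKy})` into `ℝ⁴`. -/
noncomputable def torusMap (ρ K : ℝ) (θ f : ℝ → ℝ) (z : ℝ × ℝ) : EuclideanSpace ℝ (Fin 4) :=
  !₂[ρ * cos (θ z.1) * 1, ρ * sin (θ z.1) * 1, f z.1 / K * cos (K * z.2),
    f z.1 / K * sin (K * z.2)]

lemma contDiff_torusMap (ρ K : ℝ) {θ f : ℝ → ℝ} (hθ : ContDiff ℝ ∞ θ) (hf : ContDiff ℝ ∞ f) :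
    ContDiff ℝ ∞ (torusMap ρ K θ f) := by
  rw [contDiff_euclidean]
  have h1 : ContDiff ℝ ∞ (fun z : ℝ × ℝ => θ z.1) := hθ.comp contDiff_fst
  have h2 : ContDiff ℝ ∞ (fun z : ℝ × ℝ => f z.1) := hf.comp contDiff_fst
  have h3 : ContDiff ℝ ∞ (fun z : ℝ × ℝ => K * z.2) := contDiff_const.mul contDiff_snd
  intro i
  fin_cases i
  · exact (contDiff_const.mul h1.cos).mul contDiff_const
  · exact (contDiff_const.mul h1.sin).mul contDiff_const
  · exact (h2.div_const K).mul h3.cos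
  · exact (h2.div_const K).mul h3.sin

lemma inner_fderiv_torusMap (ρ K : ℝ) (hK : K ≠ 0) {θ f : ℝ → ℝ} (hθ : ContDiff ℝ ∞ θ)
    (hf : ContDiff ℝ ∞ f) (z v w : ℝ × ℝ) :
    inner ℝ (fderiv ℝ (torusMap ρ K θ f) z v) (fderiv ℝ (torusMap ρ K θ f) z w) =
      (ρ ^ 2 * deriv θ z.1 ^ 2 + deriv f z.1 ^ 2 / K ^ 2) * v.1 * w.1 + f z.1 ^ 2 * v.2 * w.2 := by
  have hdiff : DifferentiableAt ℝ (torusMap ρ K θ f) z :=
    (contDiff_torusMap ρ K hθ hf).differentiable (by simp) z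
  have hcomp : ∀ i : Fin 4, HasFDerivAt (fun x => torusMap ρ K θ f x i)
      ((PiLp.proj 2 (fun _ : Fin 4 => ℝ) i : EuclideanSpace ℝ (Fin 4) →L[ℝ] ℝ) ∘L
        fderiv ℝ (torusMap ρ K θ f) z) z := fun i =>
    (PiLp.proj 2 (fun _ : Fin 4 => ℝ) i : EuclideanSpace ℝ (Fin 4) →L[ℝ] ℝ).hasFDerivAt.comp z
      hdiff.hasFDerivAt
  have hθd : HasDerivAt θ (deriv θ z.1) z.1 := (hθ.differentiable (by simp) z.1).hasDerivAt
  have hfd : HasDerivAt f (deriv f z.1) z.1 := (hf.differentiable (by simp) z.1).hasDerivAt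
  have hone : HasDerivAt (fun _ : ℝ => (1 : ℝ)) 0 z.2 := hasDerivAt_const _ _
  have hKy : HasDerivAt (fun y : ℝ => K * y) K z.2 := by
    simpa using (hasDerivAt_id z.2).const_mul K
  have e0 := (hcomp 0).unique (hasFDerivAt_mul_sep z (hθd.cos.const_mul ρ) hone)
  have e1 := (hcomp 1).unique (hasFDerivAt_mul_sep z (hθd.sin.const_mul ρ) hone)
  have e2 := (hcomp 2).unique (hasFDerivAt_mul_sep z (hfd.div_const K) hKy.cos)
  have e3 := (hcomp 3).unique (hasFDerivAt_mul_sep z (hfd.div_const K) hKy.sin)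
  have c0 : ∀ u : ℝ × ℝ, (fderiv ℝ (torusMap ρ K θ f) z u) 0 =
      ρ * (-sin (θ z.1) * deriv θ z.1) * u.1 := by
    intro u
    have := congrArg (fun T => T u) e0
    simpa using this
  have c1 : ∀ u : ℝ × ℝ, (fderiv ℝ (torusMap ρ K θ f) z u) 1 =
      ρ * (cos (θ z.1) * deriv θ z.1) * u.1 := by
    intro u
    have := congrArg (fun T => T u) e1
    simpa using this
  have c2 : ∀ u : ℝ × ℝ, (fderiv ℝ (torusMap ρ K θ f) z u) 2 =
      deriv f z.1 / K * cos (K * z.2) * u.1 + f z.1 / K * (-sin (K * z.2) * K) * u.2 := by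
    intro u
    have := congrArg (fun T => T u) e2
    simpa using this
  have c3 : ∀ u : ℝ × ℝ, (fderiv ℝ (torusMap ρ K θ f) z u) 3 =
      deriv f z.1 / K * sin (K * z.2) * u.1 + f z.1 / K * (cos (K * z.2) * K) * u.2 := by
    intro u
    have := congrArg (fun T => T u) e3
    simpa using this
  rw [PiLp.inner_apply, Fin.sum_univ_four]
  simp only [c0, c1, c2, c3, RCLike.inner_apply, conj_trivial]
  have t1 := sin_sq_add_cos_sq (θ z.1)
  have t2 := sin_sq_add_cos_sq (K * z.2)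
  field_simp
  have s1 : sin (θ z.1) ^ 2 = 1 - cos (θ z.1) ^ 2 := by linarith
  have s2 : sin (K * z.2) ^ 2 = 1 - cos (K * z.2) ^ 2 := by linarith
  ring_nf
  rw [s1, s2]
  ring

end Vale.Agent.P205
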