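import Vale.Agent.P205.Torus

namespace Vale.Agent.P205

open scoped ContDiff
open Real Filter

/-- A smooth function on the line with derivative bounded below by a positive constant has a smooth
global inverse. -/
lemma exists_smooth_inverse {σ : ℝ → ℝ} (hσ : ContDiff ℝ ∞ σ) {c : ℝ} (hc : 0 < c)
    (hd : ∀ t, c ≤ deriv σ t) :
    ∃ ι : ℝ → ℝ, ContDiff ℝ ∞ ι ∧ (∀ y, σ (ι y) = y) ∧ ∀ t, ι (σ t) = t := by
  have hdiff : Differentiable ℝ σ := hσ.differentiable (by simp)
  have hmono : StrictMono σ := strictMono_of_deriv_pos fun t => lt_of_lt_of_le hc (hd t)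
  have haux : Monotone (fun t => σ t - c * t) := by
    apply monotone_of_deriv_nonneg
    · exact hdiff.sub ((differentiable_const c).mul differentiable_id)
    · intro t
      have h1 : HasDerivAt (fun t => σ t - c * t) (deriv σ t - c * 1) t :=
        (hdiff t).hasDerivAt.sub ((hasDerivAt_id t).const_mul c)
      rw [h1.deriv]
      linarith [hd t]
  have htop : Tendsto σ atTop atTop := by
    have h1 : Tendsto (fun t : ℝ => σ 0 + c * t) atTop atTop :=
      tendsto_atTop_add_const_left _ _ (tendsto_id.const_mul_atTop hc)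
    refine tendsto_atTop_mono' _ ?_ h1
    filter_upwards [eventually_ge_atTop (0 : ℝ)] with t ht
    have := haux ht
    simp only [mul_zero, sub_zero] at this
    linarith
  have hbot : Tendsto σ atBot atBot := by
    have h1 : Tendsto (fun t : ℝ => σ 0 + c * t) atBot atBot :=
      tendsto_atBot_add_const_left _ _ (tendsto_id.const_mul_atBot hc)
    refine tendsto_atBot_mono' _ ?_ h1
    filter_upwards [eventually_le_atBot (0 : ℝ)] with t ht
    have := haux ht
    simp only [mul_zero, sub_zero] at this
    linarith
  have hsurj : Function.Surjective σ := hσ.continuous.surjective htop hbot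
  let H : ℝ ≃ₜ ℝ := (hmono.orderIsoOfSurjective σ hsurj).toHomeomorph
  have hH : ∀ t, H t = σ t := fun t => rfl
  refine ⟨H.symm, ?_, ?_, ?_⟩
  · exact H.contDiff_symm_deriv (f' := deriv σ)
      (fun x => ne_of_gt (lt_of_lt_of_le hc (hd x))) (fun x => (hdiff x).hasDerivAt) hσ
  · intro y
    rw [← hH]
    exact H.apply_symm_apply y
  · intro t
    rw [← hH]
    exact H.symm_apply_apply t

end Vale.Agent.P205
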