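import Vale.Agent.P205.Immersion

namespace Vale.Agent.P205

open scoped ContDiff
open Real MeasureTheory intervalIntegral

theorem warped_torus (L M : ℝ) (hL : 0 < L) (hM : 0 < M) (e f : ℝ → ℝ)
    (he : ContDiff ℝ ∞ e) (hf : ContDiff ℝ ∞ f) (hepos : ∀ x, 0 < e x)
    (heL : ∀ x, e (x + L) = e x) (hfL : ∀ x, f (x + L) = f x) (p : ℤ) (q : ℕ) (hq : 0 < q) :
    ∃ F : ℝ × ℝ → EuclideanSpace ℝ (Fin 4), ContDiff ℝ ∞ F ∧
      (∀ x y, F (x + L, y + (p / q : ℝ) * M) = F (x, y)) ∧ (∀ x y, F (x, y + M) = F (x, y)) ∧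
      ∀ z v w : ℝ × ℝ, inner ℝ (fderiv ℝ F z v) (fderiv ℝ F z w) =
        e z.1 ^ 2 * v.1 * w.1 + f z.1 ^ 2 * v.2 * w.2 := by
  have hf' : ContDiff ℝ ∞ (deriv f) := (contDiff_infty_iff_deriv.mp hf).2
  obtain ⟨c, hc, hce⟩ := exists_pos_lower_bound hL he.continuous hepos heL
  obtain ⟨D, hD, hDf⟩ := exists_abs_bound hL hf'.continuous (deriv_periodic hfL)
  obtain ⟨j, hj⟩ := exists_nat_gt ((D / c + 1) * M / (2 * π))
  have hqR : (1 : ℝ) ≤ q := by exact_mod_cast hq
  have hjpos : (0 : ℝ) < j := lt_of_le_of_lt (by positivity) hj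
  set K : ℝ := 2 * π * (q * j) / M with hK
  have hKgt : D / c + 1 < K := by
    have h1 : (D / c + 1) * M / (2 * π) < q * j := by nlinarith
    rw [hK, lt_div_iff₀ hM]
    rw [div_lt_iff₀ (by positivity)] at h1
    linarith
  have hKpos : 0 < K := lt_trans (by positivity) hKgt
  have hDK : D < c * K := by
    have : D / c < K := by linarith
    rw [div_lt_iff₀ hc] at this
    linarith
  -- the radicand
  set R : ℝ → ℝ := fun x => e x ^ 2 - deriv f x ^ 2 / K ^ 2 with hR
  have hRpos : ∀ x, 0 < R x := by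
    intro x
    have h1 : deriv f x ^ 2 < (c * K) ^ 2 := by
      have := hDf x
      have h2 : |deriv f x| < c * K := lt_of_le_of_lt this hDK
      exact sq_lt_sq' (by linarith [(abs_lt.mp h2).1]) (abs_lt.mp h2).2
    have h3 : deriv f x ^ 2 / K ^ 2 < c ^ 2 := by
      rw [div_lt_iff₀ (by positivity)]
      nlinarith
    have h4 : c ^ 2 ≤ e x ^ 2 := by
      have := hce x
      nlinarith
    simp only [hR]
    linarith
  have hRs : ContDiff ℝ ∞ R := (he.pow 2).sub ((hf'.pow 2).div_const _)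
  set s : ℝ → ℝ := fun x => Real.sqrt (R x) with hs
  have hss : ContDiff ℝ ∞ s := hRs.sqrt (fun x => (hRpos x).ne')
  have hspos : ∀ x, 0 < s x := fun x => Real.sqrt_pos.mpr (hRpos x)
  have hsper : ∀ x, s (x + L) = s x := by
    intro x
    simp only [hs, hR, heL, deriv_periodic hfL]
  set T : ℝ := ∫ t in (0 : ℝ)..L, s t with hT
  have hTpos : 0 < T :=
    intervalIntegral.intervalIntegral_pos_of_pos (hss.continuous.intervalIntegrable _ _) hspos hL
  set ρ : ℝ := T / (2 * π) with hρ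
  have hρpos : 0 < ρ := by positivity
  set θ : ℝ → ℝ := fun x => (∫ t in (0 : ℝ)..x, s t) / ρ with hθ
  have hθs : ContDiff ℝ ∞ θ := (contDiff_primitive hss).div_const _
  have hθd : ∀ x, deriv θ x = s x / ρ := fun x =>
    ((hasDerivAt_primitive hss.continuous x).div_const ρ).deriv
  have hθper : ∀ x, θ (x + L) = θ x + 2 * π := by
    intro x
    simp only [hθ]
    rw [primitive_add_period hss.continuous hsper, add_div]
    congr 1
    rw [← hT, hρ]
    field_simp
  refine ⟨torusMap ρ K θ f, contDiff_torusMap ρ K hθs hf, ?_, ?_, ?_⟩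
  · intro x y
    have e1 : K * (y + (p / q : ℝ) * M) = K * y + ((j * p : ℤ) : ℝ) * (2 * π) := by
      rw [hK]
      push_cast
      field_simp
    simp only [torusMap, hθper, hfL, e1, Real.cos_add_two_pi, Real.sin_add_two_pi,
      Real.cos_add_int_mul_two_pi, Real.sin_add_int_mul_two_pi]
  · intro x y
    have e1 : K * (y + M) = K * y + ((q * j : ℕ) : ℝ) * (2 * π) := by
      rw [hK]
      push_cast
      field_simp
    simp only [torusMap, e1, Real.cos_add_nat_mul_two_pi, Real.sin_add_nat_mul_two_pi]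
  · intro z v w
    rw [inner_fderiv_torusMap ρ K hKpos.ne' hθs hf, hθd]
    have h1 : s z.1 ^ 2 = R z.1 := Real.sq_sqrt (hRpos z.1).le
    have h2 : ρ ^ 2 * (s z.1 / ρ) ^ 2 = R z.1 := by
      rw [← h1]
      field_simp
    rw [h2]
    simp only [hR]
    ring

end Vale.Agent.P205
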