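import Vale.Agent.P205.Cone

namespace Vale.Agent.P205

open scoped ContDiff
open Real MeasureTheory intervalIntegral

lemma uF_add_period (u₀ A : ℝ) (m : ℕ) (t : ℝ) : uF u₀ A m (t + 6 * π) = uF u₀ A m t := by
  unfold uF
  have e1 : (m : ℝ) * (t + 6 * π) = m * t + ((3 * m : ℕ) : ℝ) * (2 * π) := by
    push_cast
    ring
  rw [e1, Real.sin_add_nat_mul_two_pi]

lemma gSq_add_period (u₀ A : ℝ) (m : ℕ) (t : ℝ) : gSq u₀ A m (t + 6 * π) = gSq u₀ A m t := by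
  unfold gSq dF
  have e1 : (m : ℝ) * (t + 6 * π) = m * t + ((3 * m : ℕ) : ℝ) * (2 * π) := by
    push_cast
    ring
  rw [uF_add_period, e1, Real.cos_add_nat_mul_two_pi]

lemma primU_add_period (u₀ A : ℝ) (m : ℕ) (t : ℝ) :
    primU u₀ A m (t + 6 * π) = primU u₀ A m t + 6 * π * u₀ := by
  unfold primU
  have e1 : (m : ℝ) * (t + 6 * π) = m * t + ((3 * m : ℕ) : ℝ) * (2 * π) := by
    push_cast
    ring
  rw [e1, Real.cos_add_nat_mul_two_pi]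
  ring

lemma contDiff_gSq {u₀ A : ℝ} (h1 : 1 / 3 ≤ u₀) (h2 : u₀ ≤ 2 / 3) (hA0 : 0 ≤ A) (hA : A ≤ 1 / 6)
    (m : ℕ) : ContDiff ℝ ∞ (gSq u₀ A m) := by
  have hd : ContDiff ℝ ∞ (dF u₀ A m) := by
    unfold dF
    exact (contDiff_uF u₀ A m).mul (contDiff_const.sub (contDiff_uF u₀ A m))
  unfold gSq
  refine ContDiff.add (ContDiff.div ?_ (contDiff_const.mul hd) ?_) hd
  · exact (contDiff_const.mul (contDiff_const.mul contDiff_id).cos).pow 2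
  · intro t
    have := (dF_bounds h1 h2 hA0 hA m t).1
    intro h0
    linarith

/-- Reparametrisation of the wiggly curve with prescribed speed. -/
lemma exists_reparam {u₀ A : ℝ} (h1 : 1 / 3 ≤ u₀) (h2 : u₀ ≤ 2 / 3) (hA0 : 0 ≤ A) (hA : A ≤ 1 / 6)
    (m : ℕ) {wS : ℝ → ℝ} {L : ℝ} (hw : ContDiff ℝ ∞ wS) (hwL : ∀ x, wS (x + L) = wS x)
    (hℓ : ∫ t in (0 : ℝ)..(6 * π), sqrt (gSq u₀ A m t) = ∫ t in (0 : ℝ)..L, wS t) :
    ∃ ψ : ℝ → ℝ, ContDiff ℝ ∞ ψ ∧ (∀ x, ψ (x + L) = ψ x + 6 * π) ∧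
      ∀ x, gSq u₀ A m (ψ x) * deriv ψ x ^ 2 = wS x ^ 2 := by
  have hgS := contDiff_gSq h1 h2 hA0 hA m
  have hgpos : ∀ t, 0 < gSq u₀ A m t := fun t =>
    lt_of_lt_of_le (by norm_num) (gSq_lower h1 h2 hA0 hA m t)
  set g : ℝ → ℝ := fun t => sqrt (gSq u₀ A m t) with hg
  have hgs : ContDiff ℝ ∞ g := hgS.sqrt (fun t => (hgpos t).ne')
  have hglow : ∀ t, 1 / 3 ≤ g t := by
    intro t
    apply Real.le_sqrt_of_sq_le
    have := gSq_lower h1 h2 hA0 hA m t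
    norm_num
    linarith
  have hgper : ∀ t, g (t + 6 * π) = g t := by
    intro t
    simp only [hg, gSq_add_period]
  set σ : ℝ → ℝ := fun x => ∫ t in (0 : ℝ)..x, g t with hσ
  have hσs : ContDiff ℝ ∞ σ := contDiff_primitive hgs
  have hσd : ∀ t, HasDerivAt σ (g t) t := hasDerivAt_primitive hgs.continuous
  obtain ⟨ι, hιs, hι1, hι2⟩ := exists_smooth_inverse hσs (c := 1 / 3) (by norm_num)
    (fun t => by rw [(hσd t).deriv]; exact hglow t)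
  set Ω : ℝ → ℝ := fun x => ∫ t in (0 : ℝ)..x, wS t with hΩ
  have hΩs : ContDiff ℝ ∞ Ω := contDiff_primitive hw
  have hΩd : ∀ t, HasDerivAt Ω (wS t) t := hasDerivAt_primitive hw.continuous
  have hψs : ContDiff ℝ ∞ (fun x => ι (Ω x)) := hιs.comp hΩs
  refine ⟨fun x => ι (Ω x), hψs, ?_, ?_⟩
  · intro x
    have e1 : Ω (x + L) = Ω x + ∫ t in (0 : ℝ)..L, wS t :=
      primitive_add_period hw.continuous hwL x
    have e2 : σ (ι (Ω x) + 6 * π) = σ (ι (Ω x)) + ∫ t in (0 : ℝ)..(6 * π), g t :=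
      primitive_add_period hgs.continuous hgper _
    show ι (Ω (x + L)) = ι (Ω x) + 6 * π
    rw [e1, ← hℓ, ← hι2 (ι (Ω x) + 6 * π), e2, hι1]
  · intro x
    have dψ : HasDerivAt (fun x => ι (Ω x)) (deriv (fun x => ι (Ω x)) x) x :=
      (hψs.differentiable (by simp) x).hasDerivAt
    have d1 : HasDerivAt (fun x => σ (ι (Ω x))) (g (ι (Ω x)) * deriv (fun x => ι (Ω x)) x) x :=
      HasDerivAt.comp (h₂ := σ) (h := fun x => ι (Ω x)) x (hσd (ι (Ω x))) dψ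
    have e3 : (fun x => σ (ι (Ω x))) = Ω := funext fun x => hι1 (Ω x)
    rw [e3] at d1
    have e4 : g (ι (Ω x)) * deriv (fun x => ι (Ω x)) x = wS x := d1.unique (hΩd x)
    have e5 : g (ι (Ω x)) ^ 2 = gSq u₀ A m (ι (Ω x)) := Real.sq_sqrt (hgpos _).le
    rw [← e4, mul_pow, e5]

end Vale.Agent.P205
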