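import Mathlib

namespace Vale.Agent.P205

open scoped ContDiff
open Real MeasureTheory intervalIntegral

/-- A positive continuous periodic function is bounded below by a positive constant. -/
lemma exists_pos_lower_bound {e : ℝ → ℝ} {L : ℝ} (hL : 0 < L) (hc : Continuous e)
    (hpos : ∀ x, 0 < e x) (hper : ∀ x, e (x + L) = e x) : ∃ c, 0 < c ∧ ∀ x, c ≤ e x := by
  obtain ⟨x0, -, hx0⟩ := (isCompact_Icc (a := (0 : ℝ)) (b := L)).exists_isMinOn
    ⟨0, by simp [hL.le]⟩ hc.continuousOn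
  refine ⟨e x0, hpos x0, fun x => ?_⟩
  have hp : Function.Periodic e L := hper
  obtain ⟨y, hy, hxy⟩ := hp.exists_mem_Ico₀ hL x
  rw [hxy]
  exact hx0 ⟨hy.1, hy.2.le⟩

/-- A continuous periodic function is bounded. -/
lemma exists_abs_bound {h : ℝ → ℝ} {L : ℝ} (hL : 0 < L) (hc : Continuous h)
    (hper : ∀ x, h (x + L) = h x) : ∃ D, 0 ≤ D ∧ ∀ x, |h x| ≤ D := by
  obtain ⟨x0, -, hx0⟩ := (isCompact_Icc (a := (0 : ℝ)) (b := L)).exists_isMaxOn
    ⟨0, by simp [hL.le]⟩ hc.abs.continuousOn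
  refine ⟨|h x0|, abs_nonneg _, fun x => ?_⟩
  have hp : Function.Periodic h L := hper
  obtain ⟨y, hy, hxy⟩ := hp.exists_mem_Ico₀ hL x
  rw [hxy]
  exact hx0 ⟨hy.1, hy.2.le⟩

lemma deriv_periodic {f : ℝ → ℝ} {L : ℝ} (hper : ∀ x, f (x + L) = f x) (x : ℝ) :
    deriv f (x + L) = deriv f x := by
  have h1 : deriv (fun x => f (x + L)) x = deriv f (x + L) := deriv_comp_add_const f L x
  have h2 : (fun x => f (x + L)) = f := funext hper
  rw [← h1, h2]

/-- The primitive of a smooth function is smooth. -/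
lemma contDiff_primitive {s : ℝ → ℝ} (hs : ContDiff ℝ ∞ s) :
    ContDiff ℝ ∞ (fun x => ∫ t in (0 : ℝ)..x, s t) := by
  have hd : ∀ x, HasDerivAt (fun x => ∫ t in (0 : ℝ)..x, s t) (s x) x := fun x =>
    intervalIntegral.integral_hasDerivAt_right (hs.continuous.intervalIntegrable _ _)
      (hs.continuous.stronglyMeasurableAtFilter _ _) hs.continuous.continuousAt
  rw [contDiff_infty_iff_deriv]
  refine ⟨fun x => (hd x).differentiableAt, ?_⟩
  have : deriv (fun x => ∫ t in (0 : ℝ)..x, s t) = s := funext fun x => (hd x).deriv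
  rw [this]
  exact hs

lemma hasDerivAt_primitive {s : ℝ → ℝ} (hs : Continuous s) (x : ℝ) :
    HasDerivAt (fun x => ∫ t in (0 : ℝ)..x, s t) (s x) x :=
  intervalIntegral.integral_hasDerivAt_right (hs.intervalIntegrable _ _)
    (hs.stronglyMeasurableAtFilter _ _) hs.continuousAt

lemma primitive_add_period {s : ℝ → ℝ} {L : ℝ} (hs : Continuous s)
    (hper : ∀ x, s (x + L) = s x) (x : ℝ) :
    (∫ t in (0 : ℝ)..(x + L), s t) = (∫ t in (0 : ℝ)..x, s t) + ∫ t in (0 : ℝ)..L, s t := by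
  have hp : Function.Periodic s L := hper
  have h1 : (∫ t in x..(x + L), s t) = ∫ t in (0 : ℝ)..(0 + L), s t :=
    hp.intervalIntegral_add_eq x 0
  rw [zero_add] at h1
  rw [← h1, intervalIntegral.integral_add_adjacent_intervals (hs.intervalIntegrable _ _)
    (hs.intervalIntegrable _ _)]

/-- Derivative of a product of a function of the first and a function of the second variable. -/
lemma hasFDerivAt_mul_sep {a b : ℝ → ℝ} {a' b' : ℝ} (z : ℝ × ℝ) (ha : HasDerivAt a a' z.1)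
    (hb : HasDerivAt b b' z.2) :
    HasFDerivAt (fun z : ℝ × ℝ => a z.1 * b z.2)
      ((a' * b z.2) • ContinuousLinearMap.fst ℝ ℝ ℝ +
        (a z.1 * b') • ContinuousLinearMap.snd ℝ ℝ ℝ) z := by
  have h1 : HasFDerivAt (fun z : ℝ × ℝ => a z.1) (a' • ContinuousLinearMap.fst ℝ ℝ ℝ) z :=
    ha.comp_hasFDerivAt z hasFDerivAt_fst
  have h2 : HasFDerivAt (fun z : ℝ × ℝ => b z.2) (b' • ContinuousLinearMap.snd ℝ ℝ ℝ) z :=
    hb.comp_hasFDerivAt z hasFDerivAt_snd
  have h3 := h1.mul h2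
  have e : (a' * b z.2) • ContinuousLinearMap.fst ℝ ℝ ℝ +
        (a z.1 * b') • ContinuousLinearMap.snd ℝ ℝ ℝ =
      a z.1 • b' • ContinuousLinearMap.snd ℝ ℝ ℝ + b z.2 • a' • ContinuousLinearMap.fst ℝ ℝ ℝ := by
    ext <;> simp <;> ring
  rw [e]
  exact h3

end Vale.Agent.P205
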