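import Vale.Agent.P205.Reparam

namespace Vale.Agent.P205

open scoped ContDiff
open Real MeasureTheory intervalIntegral

/-- Choice of the mean height: `6 π u₀ = a + 2 π n` with `u₀ ∈ [1/3, 2/3]`. -/
lemma exists_height (a : ℝ) : ∃ (u₀ : ℝ) (n : ℤ), 1 / 3 ≤ u₀ ∧ u₀ ≤ 2 / 3 ∧
    6 * π * u₀ = a + n * (2 * π) := by
  have hπ := pi_pos
  refine ⟨(Int.fract (a / (2 * π)) + 1) / 3, 1 - ⌊a / (2 * π)⌋, ?_, ?_, ?_⟩
  · have := Int.fract_nonneg (a / (2 * π))
    linarith
  · have := (Int.fract_lt_one (a / (2 * π))).le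
    linarith
  · have e : Int.fract (a / (2 * π)) = a / (2 * π) - ⌊a / (2 * π)⌋ := rfl
    rw [e]
    push_cast
    field_simp
    ring

theorem twisted_torus (L M τ : ℝ) (hL : 0 < L) (hM : 0 < M) (e f : ℝ → ℝ)
    (he : ContDiff ℝ ∞ e) (hf : ContDiff ℝ ∞ f) (hepos : ∀ x, 0 < e x) (hfpos : ∀ x, 0 < f x)
    (heL : ∀ x, e (x + L) = e x) (hfL : ∀ x, f (x + L) = f x) :
    ∃ F : ℝ × ℝ → EuclideanSpace ℝ (Fin 4), ContDiff ℝ ∞ F ∧
      (∀ x y, F (x + L, y + τ) = F (x, y)) ∧ (∀ x y, F (x, y + M) = F (x, y)) ∧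
      ∀ z v w : ℝ × ℝ, inner ℝ (fderiv ℝ F z v) (fderiv ℝ F z w) =
        e z.1 ^ 2 * v.1 * w.1 + f z.1 ^ 2 * v.2 * w.2 := by
  have hπ := pi_pos
  have hf' : ContDiff ℝ ∞ (deriv f) := (contDiff_infty_iff_deriv.mp hf).2
  obtain ⟨c, hc, hce⟩ := exists_pos_lower_bound hL he.continuous hepos heL
  obtain ⟨D, hD, hDf⟩ := exists_abs_bound hL hf'.continuous (deriv_periodic hfL)
  obtain ⟨f₁, hf₁, hff₁⟩ := exists_abs_bound hL hf.continuous hfL
  set B : ℝ := 3 * π * f₁ / L with hB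
  have hB0 : 0 ≤ B := by positivity
  obtain ⟨k, hk⟩ := exists_nat_gt (((D + B + 1) / c) * M / (2 * π))
  set K : ℝ := 2 * π * k / M with hK
  have hKgt : (D + B + 1) / c < K := by
    rw [hK, lt_div_iff₀ hM]
    rw [div_lt_iff₀ (by positivity)] at hk
    linarith
  have hKpos : 0 < K := lt_trans (by positivity) hKgt
  have hDK : D + B + 1 < K * c := by
    rwa [div_lt_iff₀ hc] at hKgt
  -- the radicand
  set R : ℝ → ℝ := fun x => K ^ 2 * e x ^ 2 - deriv f x ^ 2 with hR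
  have hRlow : ∀ x, B ^ 2 + 1 ≤ R x := by
    intro x
    have h1 : deriv f x ^ 2 ≤ D ^ 2 := by
      have := hDf x
      exact sq_le_sq' (by linarith [(abs_le.mp this).1]) (abs_le.mp this).2
    have h2 : K * c ≤ K * e x := mul_le_mul_of_nonneg_left (hce x) hKpos.le
    have h3 : (D + B + 1) ^ 2 ≤ (K * e x) ^ 2 := by
      apply pow_le_pow_left₀ (by positivity)
      linarith
    simp only [hR]
    nlinarith
  have hRpos : ∀ x, 0 < R x := fun x => lt_of_lt_of_le (by positivity) (hRlow x)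
  have hRs : ContDiff ℝ ∞ R := (contDiff_const.mul (he.pow 2)).sub (hf'.pow 2)
  set wS : ℝ → ℝ := fun x => Real.sqrt (R x) / f x with hwS
  have hws : ContDiff ℝ ∞ wS := (hRs.sqrt (fun x => (hRpos x).ne')).div hf (fun x => (hfpos x).ne')
  have hwper : ∀ x, wS (x + L) = wS x := by
    intro x
    simp only [hwS, hR, heL, hfL, deriv_periodic hfL]
  have hwlow : ∀ x, 3 * π / L ≤ wS x := by
    intro x
    simp only [hwS]
    rw [le_div_iff₀ (hfpos x)]
    apply Real.le_sqrt_of_sq_le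
    have h1 : f x ≤ f₁ := le_trans (le_abs_self _) (hff₁ x)
    have h2 : 3 * π / L * f x ≤ B := by
      rw [hB]
      have : 3 * π / L * f x = 3 * π * f x / L := by ring
      rw [this]
      gcongr
    have h3 : (3 * π / L * f x) ^ 2 ≤ B ^ 2 :=
      pow_le_pow_left₀ (by have := hfpos x; positivity) h2 2
    linarith [hRlow x]
  have hℓ : 3 * π ≤ ∫ t in (0 : ℝ)..L, wS t := by
    have h1 : ∫ _t in (0 : ℝ)..L, (3 * π / L) = 3 * π := by
      rw [intervalIntegral.integral_const]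
      simp only [sub_zero, smul_eq_mul]
      field_simp
    rw [← h1]
    exact intervalIntegral.integral_mono_on hL.le (by simp)
      (hws.continuous.intervalIntegrable _ _) (fun x _ => hwlow x)
  obtain ⟨u₀, n, h1, h2, hu₀⟩ := exists_height (K * τ)
  obtain ⟨m, A, hm, hA0, hA, hint⟩ := exists_amplitude h1 h2 hℓ
  obtain ⟨ψ, hψs, hψper, hψd⟩ := exists_reparam h1 h2 hA0 hA m hws hwper hint
  refine ⟨hopfMap K (rad1 u₀ A m K f ψ) (rad2 u₀ A m K f ψ) (ph1 u₀ A m ψ) (ph2 u₀ A m ψ),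
    contDiff_hopfMap K (contDiff_rad1 h1 h2 hA0 hA hf hψs) (contDiff_rad2 h1 h2 hA0 hA hf hψs)
      (contDiff_ph1 hψs) (contDiff_ph2 hψs), ?_, ?_, ?_⟩
  · intro x y
    have r1 : rad1 u₀ A m K f ψ (x + L) = rad1 u₀ A m K f ψ x := by
      simp only [rad1, hfL, hψper, uF_add_period]
    have r2 : rad2 u₀ A m K f ψ (x + L) = rad2 u₀ A m K f ψ x := by
      simp only [rad2, hfL, hψper, uF_add_period]
    have p1 : ph1 u₀ A m ψ (x + L) + K * (y + τ) =
        ph1 u₀ A m ψ x + K * y + ((-n : ℤ) : ℝ) * (2 * π) := by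
      simp only [ph1, hψper, primU_add_period]
      push_cast
      linarith
    have p2 : ph2 u₀ A m ψ (x + L) + K * (y + τ) =
        ph2 u₀ A m ψ x + K * y + ((3 - n : ℤ) : ℝ) * (2 * π) := by
      simp only [ph2, hψper, primU_add_period]
      push_cast
      linarith
    simp only [hopfMap, r1, r2, p1, p2, Real.cos_add_int_mul_two_pi, Real.sin_add_int_mul_two_pi]
  · intro x y
    have e1 : ∀ a : ℝ, a + K * (y + M) = a + K * y + (k : ℝ) * (2 * π) := by
      intro a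
      rw [hK]
      field_simp
      ring
    simp only [hopfMap, e1, Real.cos_add_nat_mul_two_pi, Real.sin_add_nat_mul_two_pi]
  · intro z v w
    rw [inner_cone h1 h2 hA0 hA hf hψs hm hKpos.ne', hψd]
    have h3 : Real.sqrt (R z.1) ^ 2 = R z.1 := Real.sq_sqrt (hRpos z.1).le
    have h4 : f z.1 ^ 2 / K ^ 2 * wS z.1 ^ 2 = R z.1 / K ^ 2 := by
      have e5 : wS z.1 ^ 2 = R z.1 / f z.1 ^ 2 := by
        simp only [hwS]
        rw [div_pow (Real.sqrt (R z.1)), h3]
      rw [e5]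
      have := (hfpos z.1).ne'
      field_simp
    rw [h4]
    simp only [hR]
    congr 2
    field_simp
    ring

end Vale.Agent.P205
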