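import Vale.Agent.P205.Hopf

namespace Vale.Agent.P205

open scoped ContDiff
open Real MeasureTheory intervalIntegral

/-- The height function `u₀ + A sin (m t)`. -/
noncomputable def uF (u₀ A : ℝ) (m : ℕ) (t : ℝ) : ℝ := u₀ + A * sin (m * t)

/-- `u (1 - u)`. -/
noncomputable def dF (u₀ A : ℝ) (m : ℕ) (t : ℝ) : ℝ := uF u₀ A m t * (1 - uF u₀ A m t)

/-- The squared speed of the curve `t ↦ (u(t), t)` on the sphere of radius `1/2`. -/
noncomputable def gSq (u₀ A : ℝ) (m : ℕ) (t : ℝ) : ℝ :=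
  (A * m * cos (m * t)) ^ 2 / (4 * dF u₀ A m t) + dF u₀ A m t

lemma uF_mem {u₀ A : ℝ} (h1 : 1 / 3 ≤ u₀) (h2 : u₀ ≤ 2 / 3) (hA0 : 0 ≤ A) (hA : A ≤ 1 / 6) (m : ℕ)
    (t : ℝ) : 1 / 6 ≤ uF u₀ A m t ∧ uF u₀ A m t ≤ 5 / 6 := by
  unfold uF
  have hs1 := neg_one_le_sin (m * t)
  have hs2 := sin_le_one (m * t)
  constructor <;> nlinarith

lemma dF_bounds {u₀ A : ℝ} (h1 : 1 / 3 ≤ u₀) (h2 : u₀ ≤ 2 / 3) (hA0 : 0 ≤ A) (hA : A ≤ 1 / 6)
    (m : ℕ) (t : ℝ) : 5 / 36 ≤ dF u₀ A m t ∧ dF u₀ A m t ≤ 1 / 4 := by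
  obtain ⟨ha, hb⟩ := uF_mem h1 h2 hA0 hA m t
  unfold dF
  constructor <;> nlinarith [sq_nonneg (uF u₀ A m t - 1 / 2)]

lemma gSq_lower {u₀ A : ℝ} (h1 : 1 / 3 ≤ u₀) (h2 : u₀ ≤ 2 / 3) (hA0 : 0 ≤ A) (hA : A ≤ 1 / 6)
    (m : ℕ) (t : ℝ) : 5 / 36 ≤ gSq u₀ A m t := by
  obtain ⟨ha, hb⟩ := dF_bounds h1 h2 hA0 hA m t
  unfold gSq
  have : 0 ≤ (A * m * cos (m * t)) ^ 2 / (4 * dF u₀ A m t) := by positivity
  linarith

lemma gSq_lower' {u₀ A : ℝ} (h1 : 1 / 3 ≤ u₀) (h2 : u₀ ≤ 2 / 3) (hA0 : 0 ≤ A) (hA : A ≤ 1 / 6)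
    (m : ℕ) (t : ℝ) : (A * m * cos (m * t)) ^ 2 ≤ gSq u₀ A m t := by
  obtain ⟨ha, hb⟩ := dF_bounds h1 h2 hA0 hA m t
  unfold gSq
  have h3 : (A * m * cos (m * t)) ^ 2 ≤ (A * m * cos (m * t)) ^ 2 / (4 * dF u₀ A m t) := by
    rw [le_div_iff₀ (by linarith)]
    nlinarith [sq_nonneg (A * m * cos (m * t))]
  linarith

lemma integral_cos_sq_mul {m : ℕ} (hm : 0 < m) :
    ∫ t in (0 : ℝ)..(6 * π), cos (m * t) ^ 2 = 3 * π := by
  have hm' : (m : ℝ) ≠ 0 := by exact_mod_cast hm.ne'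
  have h1 := intervalIntegral.integral_comp_mul_left (a := 0) (b := 6 * π)
    (fun x => cos x ^ 2) hm'
  rw [h1, integral_cos_sq]
  have h2 : sin ((m : ℝ) * (6 * π)) = 0 := by
    have : (m : ℝ) * (6 * π) = ((6 * m : ℕ) : ℝ) * π := by push_cast; ring
    rw [this]
    exact sin_nat_mul_pi _
  rw [h2]
  simp
  field_simp
  norm_num

/-- Existence of the amplitude: the length of the wiggly curve can be prescribed. -/
lemma exists_amplitude {u₀ : ℝ} (h1 : 1 / 3 ≤ u₀) (h2 : u₀ ≤ 2 / 3) {ℓ : ℝ} (hℓ : 3 * π ≤ ℓ) :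
    ∃ (m : ℕ) (A : ℝ), 0 < m ∧ 0 ≤ A ∧ A ≤ 1 / 6 ∧
      ∫ t in (0 : ℝ)..(6 * π), sqrt (gSq u₀ A m t) = ℓ := by
  obtain ⟨m, hm⟩ := exists_nat_gt (2 * ℓ / π)
  have hπ := pi_pos
  have hℓpos : 0 < ℓ := by nlinarith
  have hmpos : 0 < m := by
    have : (0 : ℝ) < m := lt_trans (by positivity) hm
    exact_mod_cast this
  have hmℓ : ℓ ≤ π * m / 2 := by
    rw [div_lt_iff₀ hπ] at hm
    linarith
  refine ⟨m, ?_⟩
  let Xs := Set.Icc (0 : ℝ) (1 / 6)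
  let f : Xs → ℝ → ℝ := fun A t => sqrt (gSq u₀ A m t)
  have hcont : Continuous (Function.uncurry f) := by
    apply Continuous.sqrt
    have hu : Continuous (fun p : Xs × ℝ => uF u₀ p.1 m p.2) := by
      unfold uF
      fun_prop
    have hd : Continuous (fun p : Xs × ℝ => dF u₀ p.1 m p.2) := by
      unfold dF
      exact hu.mul (continuous_const.sub hu)
    have hnum : Continuous (fun p : Xs × ℝ => ((p.1 : ℝ) * m * cos (m * p.2)) ^ 2) := by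
      fun_prop
    have : Continuous (fun p : Xs × ℝ => ((p.1 : ℝ) * m * cos (m * p.2)) ^ 2 /
        (4 * dF u₀ p.1 m p.2) + dF u₀ p.1 m p.2) := by
      refine (hnum.div (continuous_const.mul hd) ?_).add hd
      intro p
      have := (dF_bounds h1 h2 p.1.2.1 p.1.2.2 m p.2).1
      show (4 : ℝ) * dF u₀ p.1 m p.2 ≠ 0
      intro h0
      linarith
    exact this
  have hΛ : Continuous (fun A : Xs => ∫ t in (0 : ℝ)..(6 * π), f A t) :=
    intervalIntegral.continuous_parametric_intervalIntegral_of_continuous' hcont 0 (6 * π)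
  have hlow : ∃ A : Xs, (∫ t in (0 : ℝ)..(6 * π), f A t) ≤ ℓ := by
    refine ⟨⟨0, by norm_num, by norm_num⟩, ?_⟩
    have e : ∀ t, f ⟨0, by norm_num, by norm_num⟩ t = sqrt (u₀ * (1 - u₀)) := by
      intro t
      simp [f, gSq, dF, uF]
    simp only [e]
    rw [intervalIntegral.integral_const]
    have h3 : sqrt (u₀ * (1 - u₀)) ≤ 1 / 2 := by
      rw [sqrt_le_left (by norm_num)]
      nlinarith [sq_nonneg (u₀ - 1 / 2)]
    simp only [sub_zero, smul_eq_mul]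
    nlinarith
  have hhigh : ∃ A : Xs, ℓ ≤ ∫ t in (0 : ℝ)..(6 * π), f A t := by
    refine ⟨⟨1 / 6, by norm_num, le_refl _⟩, ?_⟩
    have hle : ∀ t, (1 / 6 : ℝ) * m * cos (m * t) ^ 2 ≤ f ⟨1 / 6, by norm_num, le_refl _⟩ t := by
      intro t
      have h3 := gSq_lower' h1 h2 (by norm_num : (0 : ℝ) ≤ 1 / 6) (le_refl _) m t
      have h4 : |(1 / 6 : ℝ) * m * cos (m * t)| ≤ sqrt (gSq u₀ (1 / 6) m t) :=
        abs_le_sqrt h3
      have h5 : (1 / 6 : ℝ) * m * cos (m * t) ^ 2 ≤ |(1 / 6 : ℝ) * m * cos (m * t)| := by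
        rw [abs_mul, abs_of_nonneg (by positivity : (0 : ℝ) ≤ 1 / 6 * m)]
        have h6 : cos (m * t) ^ 2 ≤ |cos (m * t)| := by
          have h7 := abs_cos_le_one (m * t)
          have h8 := abs_nonneg (cos (m * t))
          rw [← sq_abs]
          nlinarith
        have : (0 : ℝ) ≤ 1 / 6 * m := by positivity
        nlinarith
      exact h5.trans h4
    have hint : ∫ t in (0 : ℝ)..(6 * π), (1 / 6 : ℝ) * m * cos (m * t) ^ 2 = π * m / 2 := by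
      rw [intervalIntegral.integral_const_mul, integral_cos_sq_mul hmpos]
      ring
    calc ℓ ≤ π * m / 2 := hmℓ
      _ = ∫ t in (0 : ℝ)..(6 * π), (1 / 6 : ℝ) * m * cos (m * t) ^ 2 := hint.symm
      _ ≤ ∫ t in (0 : ℝ)..(6 * π), f ⟨1 / 6, by norm_num, le_refl _⟩ t := by
        apply intervalIntegral.integral_mono_on (by positivity)
        · exact Continuous.intervalIntegrable (by fun_prop) _ _
        · have : Continuous (f ⟨1 / 6, by norm_num, le_refl _⟩) :=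
            hcont.comp (Continuous.prodMk continuous_const continuous_id)
          exact this.intervalIntegrable _ _
        · intro t _
          exact hle t
  haveI : PreconnectedSpace Xs := Subtype.preconnectedSpace isPreconnected_Icc
  obtain ⟨A, hA⟩ := mem_range_of_exists_le_of_exists_ge hΛ hlow hhigh
  exact ⟨A, hmpos, A.2.1, A.2.2, hA⟩

end Vale.Agent.P205
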